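import Vale.Agent.P329.H157.Lang

namespace Vale.Agent.P329.H294

open H259 (pw pw_zero pw_succ pw_one pw_add pw_succ' pw_mul pw_length FQ PP Syn Hom kst_nil
  kst_of_mem kst_append)

variable {α : Type}

/-! ### words of lists of code words, newest factor first -/

/-- The word of a list of factors, newest factor first. -/
def wd : List (List α) → List α
  | [] => []
  | b :: X => wd X ++ b

@[simp] theorem wd_nil : wd ([] : List (List α)) = [] := rfl

theorem wd_cons (b : List α) (X : List (List α)) : wd (b :: X) = wd X ++ b := rfl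

@[simp] theorem wd_single (b : List α) : wd [b] = b := by rw [wd_cons, wd_nil, List.nil_append]

theorem wd_append (X Y : List (List α)) : wd (X ++ Y) = wd Y ++ wd X := by
  induction X with
  | nil => simp
  | cons b X ih => rw [List.cons_append, wd_cons, ih, wd_cons, List.append_assoc]

theorem wd_reverse (X : List (List α)) : wd X.reverse = X.flatten := by
  induction X with
  | nil => rfl
  | cons b X ih => rw [List.reverse_cons, wd_append, ih, wd_single, List.flatten_cons]

/-- `X` is a list of words of `C`. -/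
def CL (C : Set (List α)) (X : List (List α)) : Prop := ∀ x ∈ X, x ∈ C

theorem CL.nil (C : Set (List α)) : CL C [] := fun _ h => by simp at h

theorem CL.cons {C : Set (List α)} {b : List α} {X : List (List α)} (hb : b ∈ C) (hX : CL C X) :
    CL C (b :: X) := by
  intro x hx
  rcases List.mem_cons.1 hx with rfl | h
  · exact hb
  · exact hX x h

theorem cl_cons {C : Set (List α)} {b : List α} {X : List (List α)} :
    CL C (b :: X) ↔ b ∈ C ∧ CL C X :=
  ⟨fun h => ⟨h b (by simp), fun x hx => h x (by simp [hx])⟩, fun h => h.2.cons h.1⟩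

theorem cl_append {C : Set (List α)} {X Y : List (List α)} :
    CL C (X ++ Y) ↔ CL C X ∧ CL C Y := by
  constructor
  · intro h
    exact ⟨fun x hx => h x (by simp [hx]), fun x hx => h x (by simp [hx])⟩
  · rintro ⟨h1, h2⟩ x hx
    rcases List.mem_append.1 hx with h | h
    · exact h1 x h
    · exact h2 x h

/-- A prefix code. -/
structure PCd (C : Set (List α)) : Prop where
  ne : [] ∉ C
  pre : ∀ {d d' t t' : List α}, d ∈ C → d' ∈ C → d ++ t = d' ++ t' → d = d'

variable {C : Set (List α)}

theorem mem_kst_iff {w : List α} : w ∈ kst C ↔ ∃ X, CL C X ∧ wd X = w := by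
  constructor
  · rintro ⟨L, hL, hw⟩
    refine ⟨L.reverse, fun x hx => hL x (List.mem_reverse.1 hx), ?_⟩
    rw [wd_reverse]; exact hw
  · rintro ⟨X, hX, rfl⟩
    refine ⟨X.reverse, fun x hx => hX x (List.mem_reverse.1 hx), ?_⟩
    rw [← wd_reverse, List.reverse_reverse]

theorem PCd.cmp (h : PCd C) : ∀ (n : ℕ) {X X' : List (List α)} {t t' : List α},
    X.length + X'.length ≤ n → CL C X → CL C X' → wd X ++ t = wd X' ++ t' →
    (∃ Y, X' = Y ++ X ∧ t = wd Y ++ t') ∨ (∃ Y, X = Y ++ X' ∧ t' = wd Y ++ t) := by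
  intro n
  induction n with
  | zero =>
    intro X X' t t' hn hX hX' e
    have h1 : X = [] := List.length_eq_zero_iff.1 (by omega)
    have h2 : X' = [] := List.length_eq_zero_iff.1 (by omega)
    subst h1; subst h2
    left
    exact ⟨[], rfl, by simpa using e⟩
  | succ n ih =>
    intro X X' t t' hn hX hX' e
    rcases List.eq_nil_or_concat X with rfl | ⟨X1, d, rfl⟩
    · left
      exact ⟨X', by simp, by simpa using e⟩
    rcases List.eq_nil_or_concat X' with rfl | ⟨X1', d', rfl⟩
    · right
      exact ⟨X1.concat d, by simp, by simpa using e.symm⟩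
    rw [List.concat_eq_append] at hX hn e ⊢
    rw [List.concat_eq_append] at hX' hn e ⊢
    have hd : d ∈ C := (cl_append.1 hX).2 d (by simp)
    have hd' : d' ∈ C := (cl_append.1 hX').2 d' (by simp)
    rw [wd_append, wd_append, wd_single, wd_single, List.append_assoc, List.append_assoc] at e
    have hdd : d = d' := h.pre hd hd' e
    subst hdd
    have e' := List.append_cancel_left e
    rw [List.length_append, List.length_append] at hn
    rcases ih (by simp at hn; omega) (cl_append.1 hX).1 (cl_append.1 hX').1 e' with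
      ⟨Y, h1, h2⟩ | ⟨Y, h1, h2⟩
    · left
      exact ⟨Y, by rw [h1, List.append_assoc], h2⟩
    · right
      exact ⟨Y, by rw [h1, List.append_assoc], h2⟩

theorem wd_cmp (h : PCd C) {X X' : List (List α)} {t t' : List α} (hX : CL C X) (hX' : CL C X')
    (e : wd X ++ t = wd X' ++ t') :
    (∃ Y, X' = Y ++ X ∧ t = wd Y ++ t') ∨ (∃ Y, X = Y ++ X' ∧ t' = wd Y ++ t) :=
  h.cmp _ le_rfl hX hX' e

theorem wd_eq_nil (h : PCd C) {X : List (List α)} (hX : CL C X) (e : wd X = []) : X = [] := by
  cases X with
  | nil => rfl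
  | cons b X =>
    rw [wd_cons, List.append_eq_nil_iff] at e
    exact absurd (e.2 ▸ (cl_cons.1 hX).1) h.ne

theorem wd_inj (h : PCd C) {X X' : List (List α)} (hX : CL C X) (hX' : CL C X')
    (e : wd X = wd X') : X = X' := by
  rcases wd_cmp h (t := []) (t' := []) hX hX' (by rw [e]) with ⟨Y, h1, h2⟩ | ⟨Y, h1, h2⟩
  · rw [h1] at hX'
    have := wd_eq_nil h (cl_append.1 hX').1 (by simpa using h2.symm)
    rw [h1, this, List.nil_append]
  · rw [h1] at hX
    have := wd_eq_nil h (cl_append.1 hX).1 (by simpa using h2.symm)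
    rw [h1, this, List.nil_append]

theorem kst_quot (h : PCd C) {u v : List α} (hu : u ∈ kst C) (huv : u ++ v ∈ kst C) :
    v ∈ kst C := by
  obtain ⟨X, hX, rfl⟩ := mem_kst_iff.1 hu
  obtain ⟨Z, hZ, e⟩ := mem_kst_iff.1 huv
  rcases wd_cmp h (t := v) (t' := []) hX hZ (by rw [e, List.append_nil]) with
    ⟨Y, h1, h2⟩ | ⟨Y, h1, h2⟩
  · rw [h1] at hZ
    exact mem_kst_iff.2 ⟨Y, (cl_append.1 hZ).1, by simpa using h2.symm⟩
  · have : v = [] := by
      have := h2.symm
      rw [List.append_eq_nil_iff] at this
      exact this.2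
    rw [this]
    exact kst_nil C

/-! ### repetition -/

/-- `k` copies of a list. -/
def rep {β : Type*} (k : ℕ) (X : List β) : List β := (List.replicate k X).flatten

@[simp] theorem rep_zero {β : Type*} (X : List β) : rep 0 X = [] := rfl

theorem rep_succ {β : Type*} (k : ℕ) (X : List β) : rep (k + 1) X = X ++ rep k X := by
  simp [rep, List.replicate_succ]

theorem rep_add {β : Type*} (k l : ℕ) (X : List β) : rep (k + l) X = rep k X ++ rep l X := by
  induction k with
  | zero => simp
  | succ k ih =>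
    rw [show k + 1 + l = k + l + 1 by omega, rep_succ, ih, rep_succ, List.append_assoc]

@[simp] theorem rep_one {β : Type*} (X : List β) : rep 1 X = X := by simp [rep]

theorem rep_succ' {β : Type*} (k : ℕ) (X : List β) : rep (k + 1) X = rep k X ++ X := by
  rw [rep_add, rep_one]

theorem cl_rep {X : List (List α)} (hX : CL C X) (k : ℕ) : CL C (rep k X) := by
  induction k with
  | zero => exact CL.nil C
  | succ k ih => rw [rep_succ]; exact cl_append.2 ⟨hX, ih⟩

theorem wd_rep (X : List (List α)) (k : ℕ) : wd (rep k X) = pw (wd X) k := by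
  induction k with
  | zero => rfl
  | succ k ih => rw [rep_succ, wd_append, ih, pw_succ']

/-- The minimal power: if some power `v^n`, `n ≥ 1`, is in `C*`, then there is a least `j₀`, it
divides `n`, and the factorisation of `v^n` is a repetition. -/
theorem exists_min (h : PCd C) {v : List α} {n : ℕ} (hn : 1 ≤ n) (hv : pw v n ∈ kst C) :
    ∃ j k X, 1 ≤ j ∧ 1 ≤ k ∧ n = j * k ∧ CL C X ∧ wd X = pw v j ∧
      (∀ i, 1 ≤ i → i < j → pw v i ∉ kst C) ∧ wd (rep k X) = pw v n := by
  classical
  have hex : ∃ j, 1 ≤ j ∧ pw v j ∈ kst C := ⟨n, hn, hv⟩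
  obtain ⟨hj1, hj2⟩ := Nat.find_spec hex
  set j := Nat.find hex with hj
  have hmin : ∀ i, 1 ≤ i → i < j → pw v i ∉ kst C := fun i h1 h2 h3 =>
    Nat.find_min hex h2 ⟨h1, h3⟩
  obtain ⟨X, hX, hXw⟩ := mem_kst_iff.1 hj2
  have hdiv : n = j * (n / j) + n % j := (Nat.div_add_mod n j).symm
  have hmod : n % j = 0 := by
    by_contra hne
    have h1 : pw v (j * (n / j)) ∈ kst C := by
      rw [pw_mul]; exact H157.kst_pw hj2 _
    have h2 : pw v (n % j) ∈ kst C := by
      refine kst_quot h h1 ?_
      rw [← pw_add, ← hdiv]; exact hv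
    exact hmin _ (by omega) (Nat.mod_lt _ (by omega)) h2
  have hnj : n = j * (n / j) := by omega
  refine ⟨j, n / j, X, hj1, ?_, hnj, hX, hXw, hmin, ?_⟩
  · rcases Nat.eq_zero_or_pos (n / j) with h0 | h0
    · rw [h0] at hnj; omega
    · exact h0
  · rw [wd_rep, hXw, ← pw_mul, ← hnj]

/-! ### factorisation -/

open Classical in
/-- The factorisation of a word of `C*`. -/
noncomputable def fac (C : Set (List α)) (w : List α) : List (List α) :=
  if h : ∃ X, CL C X ∧ wd X = w then h.choose else []

theorem fac_wd (h : PCd C) {X : List (List α)} (hX : CL C X) : fac C (wd X) = X := by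
  have hex : ∃ Y, CL C Y ∧ wd Y = wd X := ⟨X, hX, rfl⟩
  rw [fac, dif_pos hex]
  exact wd_inj h hex.choose_spec.1 hX hex.choose_spec.2

theorem fac_cl (C : Set (List α)) (w : List α) : CL C (fac C w) := by
  rw [fac]
  split_ifs with h
  · exact h.choose_spec.1
  · exact CL.nil C

theorem wd_fac {w : List α} (hw : w ∈ kst C) : wd (fac C w) = w := by
  have hex := mem_kst_iff.1 hw
  rw [fac, dif_pos hex]
  exact hex.choose_spec.2

/-! ### measurable functions and recognition -/

/-- `f` has star-free level sets on `C`. -/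
def Ms {γ : Type*} (C : Set (List α)) (f : List α → γ) : Prop := ∀ a, SH 0 {w | w ∈ C ∧ f w = a}

/-- Finitely many star-free languages are recognised by one finite monoid in which all images are
aperiodic. -/
theorem recog {ι : Type} [Finite ι] (S : ι → Set (List α)) (hS : ∀ i, SH 0 (S i)) :
    ∃ (M : Type) (_ : Monoid M) (_ : Finite M) (f : List α → M), Hom f ∧
      (∀ v, ∃ n, f v ^ (n + 1) = f v ^ n) ∧ ∀ i u v, f u = f v → (u ∈ S i ↔ v ∈ S i) := by
  classical
  have h1 : ∀ i, ∃ (M : Type) (_ : Monoid M) (_ : Finite M) (f : List α → M), Hom f ∧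
      ∀ u v, f u = f v ↔ Syn (S i) u v := fun i => (H157.SH.fq (hS i)).monoid
  choose M iM fM f hf hk using h1
  refine ⟨∀ i, M i, inferInstance, inferInstance, fun w i => f i w, ⟨?_, ?_⟩, ?_, ?_⟩
  · funext i; exact (hf i).1
  · intro u v; funext i; exact (hf i).2 u v
  · intro v
    have h2 : ∀ i, ∃ N, ∀ n, N ≤ n → f i v ^ (n + 1) = f i v ^ n := by
      intro i
      obtain ⟨N, hN⟩ := H157.SH.pp (hS i) v
      refine ⟨N, fun n hn => ?_⟩
      rw [← (hf i).pw, ← (hf i).pw, hk]
      exact fun x y => (hN n hn x y).symm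
    choose N hN using h2
    have := Fintype.ofFinite ι
    refine ⟨Finset.univ.sup N, ?_⟩
    funext i
    exact hN i _ (Finset.le_sup (Finset.mem_univ i))
  · intro i u v huv
    exact ((hk i u v).1 (congrFun huv i)).mem

end Vale.Agent.P329.H294
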