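import Mathlib

namespace Vale.Agent.P329.H294.Fil

open Filter

/-- There is a minimal invariant filter below every proper invariant filter. -/
theorem exists_min_inv {β : Type*} (f : β → β) (F0 : Filter β) (hne : F0.NeBot)
    (h0 : Tendsto f F0 F0) :
    ∃ F : Filter β, F ≤ F0 ∧ F.NeBot ∧ Tendsto f F F ∧
      ∀ G : Filter β, G.NeBot → G ≤ F → Tendsto f G G → G = F := by
  let s : Set (Filter β)ᵒᵈ := {F | (OrderDual.ofDual F).NeBot ∧
    Tendsto f (OrderDual.ofDual F) (OrderDual.ofDual F)}
  obtain ⟨m, hm1, hm2⟩ := zorn_le_nonempty₀ s (by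
    intro c hc hch y hy
    let d : Set (Filter β) := {F | OrderDual.toDual F ∈ c}
    have hyd : OrderDual.ofDual y ∈ d := hy
    refine ⟨OrderDual.toDual (sInf d), ⟨?_, ?_⟩, ?_⟩
    · change (sInf d).NeBot
      have hdir : DirectedOn (· ≥ ·) d := by
        intro a ha b hb
        rcases hch.total ha hb with h | h
        · exact ⟨b, hb, h, le_rfl⟩
        · exact ⟨a, ha, le_rfl, h⟩
      have : Nonempty β := by
        obtain ⟨x⟩ := (hc hy).1.nonempty
        exact ⟨x⟩
      apply sInf_neBot_of_directed hdir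
      intro hbot
      exact (hc hbot).1.ne rfl
    · change Tendsto f (sInf d) (sInf d)
      refine le_sInf fun F hF => ?_
      exact (hc hF).2.mono_left (sInf_le hF)
    · intro z hz
      exact sInf_le (show OrderDual.ofDual z ∈ d from hz)) (OrderDual.toDual F0) ⟨hne, h0⟩
  refine ⟨OrderDual.ofDual m, hm1, hm2.prop.1, hm2.prop.2, ?_⟩
  intro G hG1 hG2 hG3
  have h1 : OrderDual.toDual G ∈ s := ⟨hG1, hG3⟩
  have h2 : m ≤ OrderDual.toDual G := hG2
  exact le_antisymm hG2 (hm2.le_of_ge h1 h2)

/-- A minimal shift-invariant filter of infinite times. -/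
structure FF (F : Filter ℕ) : Prop where
  ne : F.NeBot
  top : F ≤ atTop
  shift : Tendsto (fun n : ℕ => n + 1) F F
  min : ∀ G : Filter ℕ, G.NeBot → G ≤ F → Tendsto (fun n : ℕ => n + 1) G G → G = F

theorem exists_FF : ∃ F : Filter ℕ, FF F := by
  obtain ⟨F, h1, h2, h3, h4⟩ := exists_min_inv (fun n : ℕ => n + 1) atTop inferInstance
    (tendsto_add_atTop_nat 1)
  exact ⟨F, h2, h1, h3, h4⟩

variable {α : Type*}

/-- The minimal set of a zone: what holds at almost all positions for almost all words. -/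
def MM (F : Filter ℕ) (P : Filter (List α)) : Filter (List α) :=
  F.bind fun i => P.map (List.drop i)

variable {F : Filter ℕ} {P : Filter (List α)}

theorem mem_MM {S : Set (List α)} : S ∈ MM F P ↔ ∀ᶠ i in F, ∀ᶠ v in P, v.drop i ∈ S := by
  rw [MM, mem_bind']
  rfl

theorem ev_MM {q : List α → Prop} :
    (∀ᶠ v in MM F P, q v) ↔ ∀ᶠ i in F, ∀ᶠ v in P, q (v.drop i) := mem_MM

theorem MM_neBot (hF : F.NeBot) (hP : P.NeBot) : (MM F P).NeBot := by
  rw [neBot_iff, Ne, ← empty_mem_iff_bot, mem_MM]
  intro h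
  have h1 : ∀ᶠ i in F, False := by
    filter_upwards [h] with i hi
    exact (eventually_false_iff_eq_bot.1 hi ▸ hP).ne rfl
  exact hF.ne (eventually_false_iff_eq_bot.1 h1)

theorem tail_MM (hF : Tendsto (fun n : ℕ => n + 1) F F) :
    Tendsto List.tail (MM F P) (MM F P) := by
  intro S hS
  rw [mem_MM] at hS
  rw [mem_map, mem_MM]
  have := hF.eventually hS
  filter_upwards [this] with i hi
  filter_upwards [hi] with v hv
  rw [Set.mem_preimage, List.tail_drop]
  exact hv

theorem iter_tail (G : Filter (List α)) (hG : Tendsto List.tail G G) (j : ℕ) :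
    Tendsto (List.drop j) G G := by
  induction j with
  | zero =>
    have : (List.drop 0 : List α → List α) = id := by funext v; rfl
    rw [this]; exact tendsto_id
  | succ j ih =>
    have : (List.drop (j + 1) : List α → List α) = List.tail ∘ List.drop j := by
      funext v; simp
    rw [this]; exact hG.comp ih

theorem drop_MM (hF : Tendsto (fun n : ℕ => n + 1) F F) (j : ℕ) :
    Tendsto (List.drop j) (MM F P) (MM F P) := iter_tail _ (tail_MM hF) j

/-- Minimality. -/
theorem min_MM (hF : FF F) (P : Ultrafilter (List α)) {G : Filter (List α)} (hne : G.NeBot)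
    (hle : G ≤ MM F (P : Filter (List α))) (hG : Tendsto List.tail G G) :
    G = MM F (P : Filter (List α)) := by
  refine le_antisymm hle ?_
  intro S hS
  -- times at which almost all words are in `S`
  let A : Set (List α) → Set ℕ := fun S => {i | ∀ᶠ v in (P : Filter (List α)), v.drop i ∈ S}
  have hA : ∀ S ∈ G, (F ⊓ 𝓟 (A S)).NeBot := by
    intro S hS
    rw [inf_principal_neBot_iff]
    intro U hU
    by_contra hno
    rw [Set.not_nonempty_iff_eq_empty] at hno
    have h1 : Sᶜ ∈ MM F (P : Filter (List α)) := by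
      rw [mem_MM]
      filter_upwards [hU] with i hi
      have h2 : i ∉ A S := fun h => by
        have : i ∈ U ∩ A S := ⟨hi, h⟩
        rw [hno] at this
        exact this
      exact Ultrafilter.eventually_not.2 h2
    have h3 : (∅ : Set (List α)) ∈ G := by
      have := inter_mem hS (hle h1)
      rwa [Set.inter_compl_self] at this
    exact hne.ne (empty_mem_iff_bot.1 h3)
  let B : Filter ℕ :=
    { sets := {T | ∃ S ∈ G, A S ⊆ T}
      univ_sets := ⟨Set.univ, univ_mem, fun _ _ => trivial⟩
      sets_of_superset := by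
        rintro x y ⟨S, hS, h⟩ hxy
        exact ⟨S, hS, h.trans hxy⟩
      inter_sets := by
        rintro x y ⟨S, hS, h⟩ ⟨S', hS', h'⟩
        refine ⟨S ∩ S', inter_mem hS hS', ?_⟩
        intro i hi
        have hi' : ∀ᶠ v in (P : Filter (List α)), v.drop i ∈ S ∩ S' := hi
        exact ⟨h (hi'.mono fun v hv => hv.1), h' (hi'.mono fun v hv => hv.2)⟩ }
  have hB : (F ⊓ B).NeBot := by
    rw [inf_neBot_iff]
    rintro U hU T ⟨S, hS, hST⟩
    have := inf_principal_neBot_iff.1 (hA S hS) U hU
    exact this.mono (Set.inter_subset_inter_right _ hST)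
  have hBs : Tendsto (fun n : ℕ => n + 1) B B := by
    rintro T ⟨S, hS, hST⟩
    refine ⟨List.tail ⁻¹' S, hG hS, ?_⟩
    intro i hi
    apply hST
    have hi' : ∀ᶠ v in (P : Filter (List α)), v.drop i ∈ List.tail ⁻¹' S := hi
    refine hi'.mono fun v hv => ?_
    rw [Set.mem_preimage, List.tail_drop] at hv
    exact hv
  have hinv : Tendsto (fun n : ℕ => n + 1) (F ⊓ B) (F ⊓ B) := hF.shift.inf hBs
  have heq := hF.min _ hB inf_le_left hinv
  have : A S ∈ F := by
    rw [← heq]
    exact mem_inf_of_right ⟨S, hS, le_rfl⟩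
  rw [mem_MM]
  exact this

/-- Bounded gaps. -/
theorem gap_MM (hF : FF F) (P : Ultrafilter (List α)) {q : List α → Prop}
    (hq : ∃ᶠ v in MM F (P : Filter (List α)), q v) :
    ∃ n, ∀ᶠ v in MM F (P : Filter (List α)), ∃ j ≤ n, q (v.drop j) := by
  by_contra hno
  push Not at hno
  let D : ℕ → Set (List α) := fun n => {v | ∀ j ≤ n, ¬ q (v.drop j)}
  have hD : ∀ n, (MM F (P : Filter (List α)) ⊓ 𝓟 (D n)).NeBot := by
    intro n
    rw [inf_principal_neBot_iff]
    intro U hU
    have h1 := hno n
    by_contra hne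
    rw [Set.not_nonempty_iff_eq_empty] at hne
    apply h1
    filter_upwards [hU] with v hv
    by_contra h2
    have : v ∈ U ∩ D n := ⟨hv, h2⟩
    rw [hne] at this
    exact this
  have hmono : ∀ n m, n ≤ m → D m ⊆ D n := fun n m h v hv j hj => hv j (hj.trans h)
  let G : Filter (List α) := MM F (P : Filter (List α)) ⊓ ⨅ n, 𝓟 (D n)
  have hmem : ∀ U, U ∈ (⨅ n, 𝓟 (D n)) ↔ ∃ n, D n ⊆ U := by
    intro U
    rw [mem_iInf_of_directed]
    · simp only [mem_principal]
    · intro a b
      refine ⟨max a b, ?_, ?_⟩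
      · exact principal_mono.2 (hmono _ _ (le_max_left _ _))
      · exact principal_mono.2 (hmono _ _ (le_max_right _ _))
  have hG : G.NeBot := by
    rw [inf_neBot_iff]
    intro U hU T hT
    obtain ⟨n, hn⟩ := (hmem T).1 hT
    exact (inf_principal_neBot_iff.1 (hD n) U hU).mono (Set.inter_subset_inter_right _ hn)
  have hinv : Tendsto List.tail G G := by
    refine (tail_MM hF.shift).inf ?_
    rw [tendsto_iInf]
    intro n
    refine tendsto_principal.2 ?_
    have : D (n + 1) ∈ (⨅ n, 𝓟 (D n)) := (hmem _).2 ⟨n + 1, le_rfl⟩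
    filter_upwards [this] with v hv j hj
    have := hv (j + 1) (by omega)
    rw [List.drop_tail]
    exact this
  have heq := min_MM hF P hG inf_le_left hinv
  have h0 : D 0 ∈ MM F (P : Filter (List α)) := by
    rw [← heq]
    exact mem_inf_of_right ((hmem _).2 ⟨0, le_rfl⟩)
  apply hq
  filter_upwards [h0] with v hv
  exact hv 0 le_rfl

/-- If something holds for almost all words at all late positions, then it holds in `MM`. -/
theorem ev_of_top (hF : F ≤ atTop) {q : List α → Prop}
    (h : ∀ᶠ i in atTop, ∀ᶠ v in P, q (v.drop i)) : ∀ᶠ v in MM F P, q v :=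
  ev_MM.2 (hF h)

/-- Transfer between zones with the same `A`-type. -/
theorem MM_congr {P' : Filter (List α)} (A : Set (Set (List α)))
    (htail : ∀ S ∈ A, List.tail ⁻¹' S ∈ A) (hPP : ∀ S ∈ A, S ∈ P ↔ S ∈ P')
    {S : Set (List α)} (hS : S ∈ A) : S ∈ MM F P ↔ S ∈ MM F P' := by
  have hd : ∀ i, ∀ S ∈ A, (fun v : List α => v.drop i) ⁻¹' S ∈ A := by
    intro i
    induction i with
    | zero => intro S hS; exact hS
    | succ i ih =>
      intro S hS
      have : (fun v : List α => v.drop (i + 1)) ⁻¹' S =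
          (fun v : List α => v.drop i) ⁻¹' (List.tail ⁻¹' S) := by
        ext v
        simp
      rw [this]
      exact ih _ (htail S hS)
  rw [mem_MM, mem_MM]
  apply eventually_congr
  filter_upwards with i
  exact hPP _ (hd i S hS)

end Vale.Agent.P329.H294.Fil
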