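import Vale.Agent.P329.H366.Defs
import Vale.Agent.P329.H294.Fil

/-! Row (X) of helper366's interface: the minimal shift filter and the minimal filters `MM`. -/

namespace Vale.Agent.P329.H366

open Filter
open Vale.Agent.P329.H294.Fil (exists_min_inv iter_tail)

variable {α : Type} {p : ℕ}

theorem exists_FF : ∃ FF : Filter ℕ, MinShift FF := by
  obtain ⟨F, h1, h2, h3, h4⟩ := exists_min_inv (fun n : ℕ => n + 1) atTop inferInstance
    (tendsto_add_atTop_nat 1)
  exact ⟨F, h2, h1, h3, h4⟩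

theorem MM_eq (FF : Filter ℕ) (P : Ultrafilter (List α)) :
    MM FF P = H294.Fil.MM FF (P : Filter (List α)) := by
  ext S
  rw [mem_MM, H294.Fil.mem_MM]

theorem MM_minInv {FF : Filter ℕ} (h : MinShift FF) (P : Ultrafilter (List α)) :
    MinInv (MM FF P) where
  ne := by rw [MM_eq]; exact H294.Fil.MM_neBot h.ne inferInstance
  inv := by rw [MM_eq]; exact H294.Fil.tail_MM h.inv
  min := by
    intro G hG1 hG2 hG3
    rw [MM_eq] at hG2 ⊢
    exact H294.Fil.min_MM ⟨h.ne, h.cof, h.inv, h.min⟩ P hG1 hG2 hG3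

theorem MinInv.drop {M : Filter (List α)} (h : MinInv M) (j : ℕ) : Tendsto (List.drop j) M M :=
  iter_tail M h.inv j

/-- Bounded gaps. -/
theorem MinInv.syn {M : Filter (List α)} (h : MinInv M) {S : Set (List α)}
    (hS : ∃ᶠ v in M, v ∈ S) : ∃ n, ∀ᶠ v in M, ∃ j ≤ n, v.drop j ∈ S := by
  by_contra hno
  push Not at hno
  let D : ℕ → Set (List α) := fun n => {v | ∀ j ≤ n, v.drop j ∉ S}
  have hD : ∀ n, (M ⊓ 𝓟 (D n)).NeBot := by
    intro n
    rw [inf_principal_neBot_iff]
    intro U hU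
    have h1 := hno n
    by_contra hne
    rw [Set.not_nonempty_iff_eq_empty] at hne
    apply h1
    filter_upwards [hU] with v hv
    by_contra h2
    have : v ∈ U ∩ D n := ⟨hv, h2⟩
    rw [hne] at this
    exact this
  have hmono : ∀ n m, n ≤ m → D m ⊆ D n := fun n m h v hv j hj => hv j (hj.trans h)
  have hmem : ∀ U, U ∈ (⨅ n, 𝓟 (D n)) ↔ ∃ n, D n ⊆ U := by
    intro U
    rw [mem_iInf_of_directed]
    · simp only [mem_principal]
    · intro a b
      refine ⟨max a b, ?_, ?_⟩
      · exact principal_mono.2 (hmono _ _ (le_max_left _ _))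
      · exact principal_mono.2 (hmono _ _ (le_max_right _ _))
  have hG : (M ⊓ ⨅ n, 𝓟 (D n)).NeBot := by
    rw [inf_neBot_iff]
    intro U hU T hT
    obtain ⟨n, hn⟩ := (hmem T).1 hT
    exact (inf_principal_neBot_iff.1 (hD n) U hU).mono (Set.inter_subset_inter_right _ hn)
  have hinv : Tendsto List.tail (M ⊓ ⨅ n, 𝓟 (D n)) (M ⊓ ⨅ n, 𝓟 (D n)) := by
    refine h.inv.inf ?_
    rw [tendsto_iInf]
    intro n
    refine tendsto_principal.2 ?_
    have : D (n + 1) ∈ (⨅ n, 𝓟 (D n)) := (hmem _).2 ⟨n + 1, le_rfl⟩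
    filter_upwards [this] with v hv j hj
    have := hv (j + 1) (by omega)
    rw [List.drop_tail]
    exact this
  have heq := h.min _ hG inf_le_left hinv
  have h0 : D 0 ∈ M := by
    rw [← heq]
    exact mem_inf_of_right ((hmem _).2 ⟨0, le_rfl⟩)
  apply hS
  filter_upwards [h0] with v hv
  exact hv 0 le_rfl

open Classical in
theorem ind_apply (S : Set (List α)) (v : List α) : ind p S v = if v ∈ S then 1 else 0 := by
  unfold ind
  congr

theorem MM_eqv {A : (List α → ZMod p) → Prop} (hA : Alg A) {P Q : Ultrafilter (List α)}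
    (h : Eqv A P Q) {FF : Filter ℕ} {S : Set (List α)} (hS : A (ind p S)) :
    S ∈ MM FF P ↔ S ∈ MM FF Q := by
  rw [MM_eq, MM_eq]
  refine H294.Fil.MM_congr (F := FF) {S | A (ind p S)} ?_ h hS
  intro T hT
  have h1 := hA.tail _ hT
  have h2 : ind p (List.tail ⁻¹' T) = fun v => ind p T v.tail := by
    classical
    funext v
    rw [ind_apply, ind_apply]
    rfl
  change A (ind p (List.tail ⁻¹' T))
  rw [h2]
  exact h1

/-- Recurrence: the zone itself comes back to a frequent set arbitrarily late. -/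
theorem MM_rec {FF : Filter ℕ} (h : MinShift FF) {P : Ultrafilter (List α)} {S : Set (List α)}
    (hS : ∃ᶠ v in MM FF P, v ∈ S) (N : ℕ) :
    ∃ i ≥ N, ∀ᶠ v in (P : Filter (List α)), v.drop i ∈ S := by
  by_contra hno
  push Not at hno
  apply hS
  change Sᶜ ∈ MM FF P
  rw [mem_MM]
  filter_upwards [h.cof (eventually_ge_atTop N)] with i hi
  exact hno i hi

end Vale.Agent.P329.H366
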