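import Vale.Agent.P329.H294.Code

namespace Vale.Agent.P329.H294

open H259 (pw pw_zero pw_succ pw_one pw_add pw_succ' pw_mul pw_length FQ PP Syn Hom kst_nil
  kst_of_mem kst_append)

variable {α : Type} {C : Set (List α)}

/-! ### sums, paths without arrival at height `0` -/

/-- The sum of the labels. -/
def hs {γ A : Type*} [AddCommMonoid A] (σ : γ → A) (X : List γ) : A := (X.map σ).sum

@[simp] theorem hs_nil {γ A : Type*} [AddCommMonoid A] (σ : γ → A) : hs σ [] = 0 := rfl

theorem hs_cons {γ A : Type*} [AddCommMonoid A] (σ : γ → A) (b : γ) (X : List γ) :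
    hs σ (b :: X) = σ b + hs σ X := by simp [hs]

theorem hs_append {γ A : Type*} [AddCommMonoid A] (σ : γ → A) (X Y : List γ) :
    hs σ (X ++ Y) = hs σ X + hs σ Y := by simp [hs]

theorem hs_rep {γ A : Type*} [AddCommMonoid A] (σ : γ → A) (X : List γ) (k : ℕ) :
    hs σ (rep k X) = k • hs σ X := by
  induction k with
  | zero => simp
  | succ k ih => rw [rep_succ', hs_append, ih, succ_nsmul]

/-- A path with newest letter first, started at height `a`: no nonempty initial part arrives at
height `0` by a letter with nonzero label. -/
def nc {γ A : Type*} [AddCommMonoid A] (σ : γ → A) (a : A) : List γ → Prop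
  | [] => True
  | b :: P => nc σ a P ∧ ¬ (σ b ≠ 0 ∧ a + hs σ P + σ b = 0)

theorem nc_append {γ A : Type*} [AddCommMonoid A] (σ : γ → A) (a : A) (W V : List γ) :
    nc σ a (W ++ V) ↔ nc σ a V ∧ nc σ (a + hs σ V) W := by
  induction W with
  | nil => simp [nc]
  | cons b W ih =>
    rw [List.cons_append, nc, ih, nc, hs_append]
    have e : a + (hs σ W + hs σ V) + σ b = a + hs σ V + hs σ W + σ b := by
      rw [add_comm (hs σ W), ← add_assoc a]
    rw [e, and_assoc]

/-- Good walks on a prefix code. -/
structure Gd (p : ℕ) (C : Set (List α)) (σ : List α → ZMod p) : Prop extends PCd C where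
  ms : Ms C σ
  good : ∀ (v : List α) (j : ℕ) (X : List (List α)), 2 ≤ j → CL C X → wd X = pw v j →
    (∀ i, 1 ≤ i → i < j → pw v i ∉ kst C) → hs σ X ≠ 0

/-- Words of paths from `a` to `b` without arrival at `0`. -/
def Pth {p : ℕ} (C : Set (List α)) (σ : List α → ZMod p) (a b : ZMod p) : Set (List α) :=
  {w | ∃ W, CL C W ∧ wd W = w ∧ nc σ a W ∧ a + hs σ W = b}

/-! ### the automaton -/

section Aut

variable {p : ℕ} {M : Type} [Monoid M]

/-- the value after a pending part -/
def pv : Option M → M
  | none => 1
  | some m => m

open Classical in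
/-- One letter. -/
noncomputable def stp (f : List α → M) (acc : M → ZMod p → Prop) :
    Option (ZMod p × Option M) → α → Option (ZMod p × Option M)
  | none, _ => none
  | some (a, q), x =>
    if h : ∃ s, acc (pv q * f [x]) s then
      (if h.choose ≠ 0 ∧ a + h.choose = 0 then none else some (a + h.choose, none))
    else some (a, some (pv q * f [x]))

open Classical in
/-- The state at height `a` with pending part `r`. -/
noncomputable def st (f : List α → M) (a : ZMod p) (r : List α) : Option (ZMod p × Option M) :=
  some (a, if r = [] then none else some (f r))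

/-- No initial part in `C`. -/
def NP (C : Set (List α)) (r : List α) : Prop := ∀ d t, d ∈ C → r ≠ d ++ t

variable (hC : PCd C) {σ : List α → ZMod p} {f : List α → M} (hf : Hom f)
  {acc : M → ZMod p → Prop} (hacc : ∀ w s, acc (f w) s ↔ w ∈ C ∧ σ w = s)

include hf hacc

omit hacc in
theorem pv_st (r : List α) [Decidable (r = [])] :
    pv (if r = [] then none else some (f r)) = f r := by
  split_ifs with h
  · rw [h, hf.1]; rfl
  · rfl

open Classical in
theorem stp_st (a : ZMod p) (r : List α) (x : α) :
    stp f acc (st f a r) x =
      if r ++ [x] ∈ C then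
        (if σ (r ++ [x]) ≠ 0 ∧ a + σ (r ++ [x]) = 0 then none else st f (a + σ (r ++ [x])) [])
      else st f a (r ++ [x]) := by
  have e : pv (if r = [] then none else some (f r)) * f [x] = f (r ++ [x]) := by
    rw [pv_st hf, hf.2]
  unfold st
  rw [stp]
  by_cases h : r ++ [x] ∈ C
  · have hex : ∃ s, acc (pv (if r = [] then none else some (f r)) * f [x]) s :=
      ⟨σ (r ++ [x]), by rw [e]; exact (hacc _ _).2 ⟨h, rfl⟩⟩
    have hch : hex.choose = σ (r ++ [x]) := by
      have := hex.choose_spec
      generalize hex.choose = s at this
      rw [e] at this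
      exact ((hacc _ _).1 this).2.symm
    rw [dif_pos hex, hch, if_pos h]
    simp
  · have hex : ¬ ∃ s, acc (pv (if r = [] then none else some (f r)) * f [x]) s := by
      rintro ⟨s, hs⟩
      rw [e] at hs
      exact h ((hacc _ _).1 hs).1
    rw [dif_neg hex, if_neg h, e]
    simp

theorem run_np (a : ZMod p) : ∀ (u r : List α), NP C (r ++ u) →
    u.foldl (stp f acc) (st f a r) = st f a (r ++ u) := by
  intro u
  induction u with
  | nil => intro r _; simp
  | cons x u ih =>
    intro r h
    rw [List.foldl_cons, stp_st hf hacc, if_neg, ih]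
    · simp
    · simpa using h
    · intro hx
      exact h _ u hx (by simp)

include hC

open Classical in
theorem run_code (a : ZMod p) {d : List α} (hd : d ∈ C) :
    d.foldl (stp f acc) (st f a []) =
      if σ d ≠ 0 ∧ a + σ d = 0 then none else st f (a + σ d) [] := by
  rcases List.eq_nil_or_concat d with rfl | ⟨r, x, rfl⟩
  · exact absurd hd hC.ne
  rw [List.concat_eq_append] at hd ⊢
  rw [List.foldl_append, run_np hf hacc a r []]
  · rw [List.foldl_cons, List.foldl_nil, List.nil_append, stp_st hf hacc, if_pos hd]
  · intro d' t hd' e
    rw [List.nil_append] at e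
    have : d' = r ++ [x] := hC.pre hd' hd (t := t ++ [x]) (t' := []) (by rw [e]; simp)
    rw [this] at e
    have := congrArg List.length e
    simp at this

open Classical in
theorem run_wd (a : ZMod p) (W : List (List α)) (hW : CL C W) :
    (wd W).foldl (stp f acc) (st f a []) = if nc σ a W then st f (a + hs σ W) [] else none := by
  induction W with
  | nil => simp [nc]
  | cons b W ih =>
    rw [wd_cons, List.foldl_append, ih (cl_cons.1 hW).2]
    by_cases h : nc σ a W
    · rw [if_pos h, run_code hC hf hacc _ (cl_cons.1 hW).1]
      by_cases h2 : σ b ≠ 0 ∧ a + hs σ W + σ b = 0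
      · rw [if_pos h2, if_neg]
        rw [nc]
        exact fun h3 => h3.2 h2
      · rw [if_neg h2, if_pos]
        · rw [hs_cons, add_assoc, add_comm (hs σ W)]
        · exact ⟨h, h2⟩
    · rw [if_neg h, if_neg (fun h3 => h h3.1)]
      clear ih hW
      induction b with
      | nil => rfl
      | cons x b ih => rw [List.foldl_cons]; exact ih

omit hf hacc in
theorem split_np : ∀ (n : ℕ) (u : List α), u.length ≤ n → ∃ W r, CL C W ∧ NP C r ∧ u = wd W ++ r := by
  intro n
  induction n with
  | zero =>
    intro u hu
    have : u = [] := List.length_eq_zero_iff.1 (by omega)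
    subst this
    refine ⟨[], [], CL.nil C, ?_, by simp⟩
    intro d t hd e
    have : d = [] := (List.append_eq_nil_iff.1 e.symm).1
    exact hC.ne (this ▸ hd)
  | succ n ih =>
    intro u hu
    by_cases h : NP C u
    · exact ⟨[], u, CL.nil C, h, by simp⟩
    · unfold NP at h
      push Not at h
      obtain ⟨d, t, hd, e⟩ := h
      have hd0 : d ≠ [] := fun h => hC.ne (h ▸ hd)
      have hd1 : 0 < d.length := List.length_pos_iff.2 hd0
      have hl : u.length = d.length + t.length := by rw [e, List.length_append]
      obtain ⟨W, r, hW, hr, ht⟩ := ih t (by omega)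
      refine ⟨W ++ [d], r, cl_append.2 ⟨hW, (CL.nil C).cons hd⟩, hr, ?_⟩
      rw [wd_append, wd_single, List.append_assoc, ← ht, e]

omit hC hf hacc in
omit [Monoid M] in
theorem st_inj {a b : ZMod p} {r : List α} (h : st f a r = st f b []) : r = [] ∧ a = b := by
  unfold st at h
  rw [if_pos rfl] at h
  simp only [Option.some.injEq, Prod.mk.injEq, ite_eq_left_iff, reduceCtorEq, imp_false,
    not_not] at h
  exact ⟨h.2, h.1⟩

theorem run_iff (a b : ZMod p) (u : List α) :
    u.foldl (stp f acc) (st f a []) = st f b [] ↔ u ∈ Pth C σ a b := by
  classical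
  constructor
  · intro h
    obtain ⟨W, r, hW, hr, rfl⟩ := split_np hC _ u le_rfl
    rw [List.foldl_append, run_wd hC hf hacc a W hW] at h
    by_cases h1 : nc σ a W
    · rw [if_pos h1, run_np hf hacc _ r [] (by simpa using hr)] at h
      obtain ⟨h2, h3⟩ := st_inj h
      rw [List.nil_append] at h2
      subst h2
      exact ⟨W, hW, by simp, h1, h3⟩
    · rw [if_neg h1] at h
      have : ∀ r : List α, r.foldl (stp f acc) (none : Option (ZMod p × Option M)) = none := by
        intro r
        induction r with
        | nil => rfl
        | cons x r ih => rw [List.foldl_cons]; exact ih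
      rw [this] at h
      unfold st at h
      simp at h
  · rintro ⟨W, hW, rfl, h1, h2⟩
    rw [run_wd hC hf hacc a W hW, if_pos h1, h2]

omit hC hacc in
/-- Reading `u` without completion, or a completion. -/
theorem dich : ∀ (u : List α) (a : ZMod p) (q : Option M),
    (∀ u1 u2, u = u1 ++ u2 → u1 ≠ [] →
      u1.foldl (stp f acc) (some (a, q)) = some (a, some (pv q * f u1))) ∨
    ∃ u1 u2, u = u1 ++ u2 ∧ (u1.foldl (stp f acc) (some (a, q)) = none ∨
      ∃ a', u1.foldl (stp f acc) (some (a, q)) = st f a' []) := by
  intro u
  induction u with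
  | nil =>
    intro a q
    left
    intro u1 u2 h h1
    exact absurd (List.append_eq_nil_iff.1 h.symm).1 h1
  | cons x u ih =>
    intro a q
    by_cases hex : ∃ s, acc (pv q * f [x]) s
    · right
      refine ⟨[x], u, rfl, ?_⟩
      rw [List.foldl_cons, List.foldl_nil, stp, dif_pos hex]
      split_ifs with h
      · left; rfl
      · right
        exact ⟨a + hex.choose, by unfold st; simp⟩
    · have hs : stp f acc (some (a, q)) x = some (a, some (pv q * f [x])) := by
        rw [stp, dif_neg hex]
      rcases ih a (some (pv q * f [x])) with h | ⟨u1, u2, h1, h2⟩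
      · left
        intro u1 u2 e h1
        cases u1 with
        | nil => exact absurd rfl h1
        | cons y u1 =>
          rw [List.cons_append, List.cons.injEq] at e
          obtain ⟨rfl, e⟩ := e
          rw [List.foldl_cons, hs]
          by_cases h2 : u1 = []
          · subst h2; rfl
          · rw [h u1 u2 e h2]
            congr 3
            change pv q * f [x] * f u1 = _
            rw [mul_assoc, ← hf.2]
            rfl
      · right
        refine ⟨x :: u1, u2, by rw [h1]; rfl, ?_⟩
        rw [List.foldl_cons, hs]
        exact h2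

end Aut

theorem foldl_pw {γ : Type*} (δ : γ → α → γ) (z : List α) (n : ℕ) (s : γ) :
    (fun t => z.foldl δ t)^[n] s = (pw z n).foldl δ s := by
  induction n generalizing s with
  | zero => rfl
  | succ n ih => rw [Function.iterate_succ_apply, ih, pw_succ, List.foldl_append]

theorem pw_rot (z1 z2 : List α) (k : ℕ) :
    z2 ++ pw (z1 ++ z2) k ++ z1 = pw (z2 ++ z1) (k + 1) := by
  rw [← H157.pw_conj, List.append_assoc, pw_succ']

theorem pw_nil' (n : ℕ) : pw ([] : List α) n = [] := by
  induction n with
  | zero => rfl
  | succ n ih => rw [pw_succ, ih]; rfl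

/-- **The path languages of a good walk are star-free.** -/
theorem path_sf {p : ℕ} [hp : Fact p.Prime] [Finite α] {σ : List α → ZMod p} (hG : Gd p C σ)
    (a b : ZMod p) : SH 0 (Pth C σ a b) := by
  classical
  have hC : PCd C := hG.toPCd
  have : NeZero p := ⟨hp.out.ne_zero⟩
  obtain ⟨M, iM, fM, f, hf, hap, hS⟩ := recog (fun s : ZMod p => {w | w ∈ C ∧ σ w = s}) hG.ms
  set acc : M → ZMod p → Prop := fun m s => ∃ w, f w = m ∧ w ∈ C ∧ σ w = s with hdef
  have hacc : ∀ w s, acc (f w) s ↔ w ∈ C ∧ σ w = s := by
    intro w s
    constructor
    · rintro ⟨w', e, h⟩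
      exact (hS s w' w e).1 h
    · intro h
      exact ⟨w, rfl, h⟩
  have hnone : ∀ r : List α, r.foldl (stp f acc) (none : Option (ZMod p × Option M)) = none := by
    intro r
    induction r with
    | nil => rfl
    | cons x r ih => rw [List.foldl_cons]; exact ih
  have key : ∀ (z : List α) (s : Option (ZMod p × Option M)) (n : ℕ), 0 < n →
      (fun t => z.foldl (stp f acc) t)^[n] s = s → z.foldl (stp f acc) s = s := by
    intro z s n hn hst
    rw [foldl_pw] at hst
    cases s with
    | none => exact hnone z
    | some s =>
    obtain ⟨a1, q⟩ := s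
    by_cases hz : z = []
    · rw [hz]; rfl
    obtain ⟨n', rfl⟩ : ∃ n', n = n' + 1 := ⟨n - 1, by omega⟩
    rcases dich hf (acc := acc) (pw z (n' + 1)) a1 q with h | ⟨u1, u2, hu, h⟩
    · -- no completion
      have h1 := h (pw z (n' + 1)) [] (by simp) (by rw [pw_succ]; simp [hz])
      have h2 := h z (pw z n') (by rw [pw_succ]) hz
      rw [hst] at h1
      simp only [Option.some.injEq, Prod.mk.injEq, true_and] at h1
      rw [h2, h1]
      simp only [Option.some.injEq, Prod.mk.injEq, true_and]
      change pv q * f (pw z (n' + 1)) * f z = pv q * f (pw z (n' + 1))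
      rw [hf.pw]
      -- m := pv q
      have hm : pv q = pv q * f z ^ (n' + 1) := by
        conv_lhs => rw [h1]
        change pv q * f (pw z (n' + 1)) = _
        rw [hf.pw]
      have hm2 : ∀ k, pv q = pv q * f z ^ ((n' + 1) * k) := by
        intro k
        induction k with
        | zero => simp
        | succ k ih =>
          rw [Nat.mul_succ, pow_add, ← mul_assoc, ← ih]
          exact hm
      obtain ⟨N, hN⟩ := hap z
      have hN2 : ∀ n, N ≤ n → f z ^ (n + 1) = f z ^ n := by
        intro n hn
        obtain ⟨d, rfl⟩ := Nat.exists_eq_add_of_le hn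
        rw [show N + d + 1 = N + 1 + d by omega, pow_add, hN, ← pow_add]
      have hk := hm2 N
      have hge : N ≤ (n' + 1) * N := Nat.le_mul_of_pos_left N (by omega)
      have hm3 : pv q * f z = pv q := by
        conv_lhs => rw [hk]
        rw [mul_assoc, ← pow_succ, hN2 _ hge, ← hk]
      rw [← hm, hm3]
    · rcases h with h | ⟨a', h⟩
      · exfalso
        rw [hu, List.foldl_append, h, hnone] at hst
        exact absurd hst (by simp)
      · -- completion
        obtain ⟨i, j, z1, z2, hz12, hu1, hu2, hij⟩ := H259.pw_split z n' u1 u2 hu
        subst hz12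
        set t := st f a' ([] : List α) with ht
        have hs1 : u2.foldl (stp f acc) t = some (a1, q) := by
          rw [← h, ← List.foldl_append, ← hu]; exact hst
        have hw : (pw (z2 ++ z1) (n' + 1)).foldl (stp f acc) t = t := by
          have e : pw (z2 ++ z1) (n' + 1) = u2 ++ u1 := by
            rw [← pw_rot, hu1, hu2, ← hij, add_comm i j, pw_add]
            simp
          rw [e, List.foldl_append, hs1, h]
        -- claim
        have claim : (z2 ++ z1).foldl (stp f acc) t = t := by
          generalize z2 ++ z1 = w at hw
          have hmem : pw w (n' + 1) ∈ Pth C σ a' a' := (run_iff hC hf hacc a' a' _).1 hw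
          have hk : pw w (n' + 1) ∈ kst C := by
            obtain ⟨W, hW, hWw, -, -⟩ := hmem
            exact mem_kst_iff.2 ⟨W, hW, hWw⟩
          obtain ⟨j0, k, X, hj, hk1, hnk, hX, hXw, hmin, hrep⟩ := exists_min hC (by omega) hk
          obtain ⟨W, hW, hWw, hnc, hend⟩ := hmem
          have hWX : W = rep k X := wd_inj hC hW (cl_rep hX k) (by rw [hWw, hrep])
          subst hWX
          by_cases hS0 : hs σ X = 0
          · have hj1 : j0 = 1 := by
              by_contra hne
              exact hG.good w j0 X (by omega) hX hXw hmin hS0
            subst hj1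
            rw [pw_one] at hXw
            rw [← hXw, ht, run_wd hC hf hacc a' X hX, hS0, add_zero, if_pos]
            obtain ⟨k', rfl⟩ : ∃ k', k = k' + 1 := ⟨k - 1, by omega⟩
            rw [rep_succ', nc_append] at hnc
            exact hnc.1
          · exfalso
            have hkS : (k : ZMod p) * hs σ X = 0 := by
              rw [hs_rep, nsmul_eq_mul] at hend
              simpa using hend
            have hk0 : (k : ZMod p) = 0 := by
              rcases mul_eq_zero.1 hkS with h | h
              · exact h
              · exact absurd h hS0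
            have hpk : p ∣ k := (ZMod.natCast_eq_zero_iff k p).1 hk0
            have hpk' : p ≤ k := Nat.le_of_dvd (by omega) hpk
            -- a letter with nonzero label
            have hb : ∃ Q b P, X = Q ++ b :: P ∧ σ b ≠ 0 := by
              by_contra hno
              push Not at hno
              apply hS0
              have : ∀ x ∈ X, σ x = 0 := by
                intro x hx
                obtain ⟨Q, P, e⟩ := List.append_of_mem hx
                exact hno Q x P e
              unfold hs
              rw [List.sum_eq_zero]
              intro y hy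
              obtain ⟨x, hx, rfl⟩ := List.mem_map.1 hy
              exact this x hx
            obtain ⟨Q, b, P, hXe, hb⟩ := hb
            set m : ℕ := (-(a' + hs σ P + σ b) / hs σ X).val with hm
            have hmp : m < p := ZMod.val_lt _
            have hmv : (m : ZMod p) * hs σ X = -(a' + hs σ P + σ b) := by
              rw [hm, ZMod.natCast_zmod_val, div_mul_cancel₀ _ hS0]
            have hsplit : rep k X = rep (k - m - 1) X ++ (Q ++ (b :: (P ++ rep m X))) := by
              have : k = (k - m - 1) + 1 + m := by omega
              have h3 : rep k X = rep (k - m - 1) X ++ X ++ rep m X := by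
                conv_lhs => rw [this, rep_add, rep_succ']
              have h4 : X ++ rep m X = Q ++ (b :: (P ++ rep m X)) := by
                calc X ++ rep m X = (Q ++ b :: P) ++ rep m X := by rw [← hXe]
                  _ = _ := by simp
              rw [h3, List.append_assoc, h4]
            rw [hsplit, nc_append, nc_append] at hnc
            apply hnc.1.1.2
            refine ⟨hb, ?_⟩
            rw [hs_append, hs_rep, nsmul_eq_mul, hmv]
            ring
        have hpwt : ∀ k, (pw (z2 ++ z1) k).foldl (stp f acc) t = t := by
          intro k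
          induction k with
          | zero => rfl
          | succ k ih => rw [pw_succ, List.foldl_append, claim, ih]
        have e1 : u2 = pw (z2 ++ z1) j ++ z2 := by rw [hu2, H157.pw_conj]
        have e2 : u2 ++ (z1 ++ z2) = pw (z2 ++ z1) (j + 1) ++ z2 := by
          rw [H157.pw_conj, pw_succ', hu2, List.append_assoc]
        rw [← hs1, ← List.foldl_append, e2, e1, List.foldl_append, List.foldl_append, hpwt, hpwt]
  have hfin : Finite (Option (ZMod p × Option M)) := inferInstance
  have := dfa_sf (stp f acc) key (st f a []) (fun s => s = st f b [])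
  have he : {w : List α | w.foldl (stp f acc) (st f a []) = st f b []} = Pth C σ a b := by
    ext w
    exact run_iff hC hf hacc a b w
  rw [← he]
  exact this

end Vale.Agent.P329.H294
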