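import Vale.Agent.P329.H294.Path

namespace Vale.Agent.P329.H294

open H259 (pw pw_zero pw_succ pw_one pw_add pw_succ' pw_mul pw_length FQ PP Syn Hom kst_nil
  kst_of_mem kst_append)

variable {α : Type} {C : Set (List α)} {p : ℕ} {σ : List α → ZMod p}

/-! ### newest and oldest factor -/

/-- The newest (last) factor. -/
noncomputable def nwf (C : Set (List α)) (w : List α) : List α := (fac C w).head?.getD []

/-- The oldest (first) factor. -/
noncomputable def olf (C : Set (List α)) (w : List α) : List α := (fac C w).getLast?.getD []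

theorem nwf_wd (hC : PCd C) {b : List α} {P : List (List α)} (h : CL C (b :: P)) :
    nwf C (wd (b :: P)) = b := by
  rw [nwf, fac_wd hC h]; rfl

theorem olf_wd (hC : PCd C) {b : List α} {P : List (List α)} (h : CL C (P ++ [b])) :
    olf C (wd (P ++ [b])) = b := by
  rw [olf, fac_wd hC h]; simp

/-! ### measurable functions -/

section Ms

variable {γ δ ε : Type*}

theorem Ms.pair {f : List α → γ} {g : List α → δ} (hf : Ms C f) (hg : Ms C g) :
    Ms C (fun w => (f w, g w)) := by
  rintro ⟨a, b⟩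
  have : {w | w ∈ C ∧ (f w, g w) = (a, b)} = {w | w ∈ C ∧ f w = a} ∩ {w | w ∈ C ∧ g w = b} := by
    ext w
    simp only [Set.mem_ofPred_eq, Set.mem_inter_iff, Prod.mk.injEq]
    tauto
  rw [this]
  exact (hf a).inter (hg b)

theorem Ms.comp [Finite γ] {f : List α → γ} (hf : Ms C f) (g : γ → δ) :
    Ms C (fun w => g (f w)) := by
  intro b
  have : {w | w ∈ C ∧ g (f w) = b} = ⋃ a : γ, ⋃ _ : g a = b, {w | w ∈ C ∧ f w = a} := by
    ext w
    simp only [Set.mem_ofPred_eq, Set.mem_iUnion]
    constructor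
    · rintro ⟨h1, h2⟩
      exact ⟨f w, h2, h1, rfl⟩
    · rintro ⟨a, h1, h2, rfl⟩
      exact ⟨h2, h1⟩
  rw [this]
  exact SH.iUnion fun a => SH.iUnion_prop fun _ => hf a

theorem Ms.sh [Finite γ] {f : List α → γ} (hf : Ms C f) : SH 0 C := by
  have := hf.comp (fun _ => ()) ()
  simpa using this

theorem Ms.const (h : SH 0 C) (c : γ) : Ms C (fun _ => c) := by
  intro b
  have : {w | w ∈ C ∧ c = b} = ⋃ _ : c = b, C := by
    ext w
    simp only [Set.mem_ofPred_eq, Set.mem_iUnion]
    tauto
  rw [this]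
  exact SH.iUnion_prop fun _ => h

theorem Ms.op2 [Finite γ] [Finite δ] {f : List α → γ} {g : List α → δ} (hf : Ms C f)
    (hg : Ms C g) (o : γ → δ → ε) : Ms C (fun w => o (f w) (g w)) :=
  (hf.pair hg).comp (fun x : γ × δ => o x.1 x.2)

end Ms

/-! ### the return code -/

/-- Return words: paths from height `0` to height `0`, last label nonzero, without earlier arrival
at `0` by a nonzero label. -/
def Ret (C : Set (List α)) (σ : List α → ZMod p) : Set (List α) :=
  {w | ∃ b P, CL C (b :: P) ∧ wd (b :: P) = w ∧ σ b ≠ 0 ∧ hs σ P + σ b = 0 ∧ nc σ 0 P}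

theorem ret_two {b : List α} {P : List (List α)} (h : σ b ≠ 0) (h' : hs σ P + σ b = 0) :
    P ≠ [] := by
  rintro rfl
  rw [hs_nil, zero_add] at h'
  exact h h'

theorem ret_kst {w : List α} (hw : w ∈ Ret C σ) : w ∈ kst C := by
  obtain ⟨b, P, h, rfl, -⟩ := hw
  exact mem_kst_iff.2 ⟨_, h, rfl⟩

theorem ret_fac (hC : PCd C) {w : List α} (hw : w ∈ Ret C σ) :
    ∃ b P, CL C (b :: P) ∧ wd (b :: P) = w ∧ fac C w = b :: P ∧ nwf C w = b ∧ σ b ≠ 0 ∧
      hs σ P + σ b = 0 ∧ nc σ 0 P := by
  obtain ⟨b, P, h, rfl, h1, h2, h3⟩ := hw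
  exact ⟨b, P, h, rfl, fac_wd hC h, nwf_wd hC h, h1, h2, h3⟩

theorem ret_nz (hC : PCd C) {w : List α} (hw : w ∈ Ret C σ) : σ (nwf C w) ≠ 0 := by
  obtain ⟨b, P, -, -, -, h, h1, -⟩ := ret_fac hC hw
  rw [h]; exact h1

theorem ret_pcd (hC : PCd C) : PCd (Ret C σ) where
  ne := by
    rintro ⟨b, P, h, e, -⟩
    have := wd_eq_nil hC h e
    simp at this
  pre := by
    intro d d' t t' hd hd' e
    obtain ⟨b, P, h, rfl, h1, h2, h3⟩ := hd
    obtain ⟨b', P', h', rfl, h1', h2', h3'⟩ := hd'
    rcases wd_cmp hC h h' e with ⟨Y, h4, -⟩ | ⟨Y, h4, -⟩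
    · cases Y with
      | nil => rw [h4]; rfl
      | cons y Y =>
        rw [List.cons_append, List.cons.injEq] at h4
        rw [h4.2, nc_append] at h3'
        exfalso
        apply h3'.1.2
        exact ⟨h1, by rw [zero_add]; exact h2⟩
    · cases Y with
      | nil => rw [h4]; rfl
      | cons y Y =>
        rw [List.cons_append, List.cons.injEq] at h4
        rw [h4.2, nc_append] at h3
        exfalso
        apply h3.1.2
        exact ⟨h1', by rw [zero_add]; exact h2'⟩

/-- Measurability of functions of the newest factor. -/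
theorem ms_nwf [Fact p.Prime] [Finite α] (hG : Gd p C σ) {γ : Type*} {f : List α → γ}
    (hf : Ms C f) : Ms (Ret C σ) (fun w => f (nwf C w)) := by
  intro a
  have hC := hG.toPCd
  have : NeZero p := ⟨(Fact.out : p.Prime).ne_zero⟩
  have e : {w | w ∈ Ret C σ ∧ f (nwf C w) = a} = ⋃ s : ZMod p, ⋃ _ : s ≠ 0,
      cat (Pth C σ 0 (-s)) ({w | w ∈ C ∧ σ w = s} ∩ {w | w ∈ C ∧ f w = a}) := by
    ext w
    simp only [Set.mem_iUnion]
    constructor
    · rintro ⟨hw, ha⟩
      obtain ⟨b, P, h, rfl, -, h0, h1, h2, h3⟩ := ret_fac hC hw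
      rw [h0] at ha
      refine ⟨σ b, h1, wd P, ⟨P, (cl_cons.1 h).2, rfl, h3, ?_⟩, b,
        ⟨⟨(cl_cons.1 h).1, rfl⟩, (cl_cons.1 h).1, ha⟩, rfl⟩
      rw [zero_add]; exact eq_neg_of_add_eq_zero_left h2
    · rintro ⟨s, hs0, u, ⟨P, hP, rfl, h3, h4⟩, b, ⟨⟨hb, hbs⟩, -, hba⟩, rfl⟩
      have hcl : CL C (b :: P) := hP.cons hb
      rw [zero_add] at h4
      refine ⟨⟨b, P, hcl, rfl, by rw [hbs]; exact hs0, ?_, h3⟩, ?_⟩
      · rw [h4, hbs]; simp
      · rw [← wd_cons]
        rw [nwf_wd hC hcl]; exact hba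
  rw [e]
  exact SH.iUnion fun s => SH.iUnion_prop fun _ =>
    (path_sf hG 0 (-s)).cat ((hG.ms s).inter (hf a))

/-- Measurability of functions of the oldest factor. -/
theorem ms_olf [Fact p.Prime] [Finite α] (hG : Gd p C σ) {γ : Type*} {f : List α → γ}
    (hf : Ms C f) : Ms (Ret C σ) (fun w => f (olf C w)) := by
  intro a
  have hC := hG.toPCd
  have : NeZero p := ⟨(Fact.out : p.Prime).ne_zero⟩
  have e : {w | w ∈ Ret C σ ∧ f (olf C w) = a} = ⋃ s : ZMod p, ⋃ _ : s ≠ 0, ⋃ s1 : ZMod p,
      cat ({w | w ∈ C ∧ σ w = s1} ∩ {w | w ∈ C ∧ f w = a})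
        (cat (Pth C σ s1 (-s)) {w | w ∈ C ∧ σ w = s}) := by
    ext w
    simp only [Set.mem_iUnion]
    constructor
    · rintro ⟨hw, ha⟩
      obtain ⟨b, P, h, rfl, -, h0, h1, h2, h3⟩ := ret_fac hC hw
      rcases List.eq_nil_or_concat P with rfl | ⟨P, d, rfl⟩
      · exact absurd rfl (ret_two h1 h2)
      rw [List.concat_eq_append] at *
      have h5 : olf C (wd (b :: (P ++ [d]))) = d := olf_wd (P := b :: P) hC h
      rw [h5] at ha
      rw [cl_cons, cl_append] at h
      obtain ⟨hb, hP, hd⟩ := h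
      have hd' : d ∈ C := hd d (by simp)
      rw [nc_append] at h3
      rw [hs_append, hs_cons, hs_nil, add_zero] at h2
      refine ⟨σ b, h1, σ d, d, ⟨⟨hd', rfl⟩, hd', ha⟩, wd (b :: P), ?_, ?_⟩
      · refine ⟨wd P, ⟨P, hP, rfl, ?_, ?_⟩, b, ⟨hb, rfl⟩, rfl⟩
        · have := h3.2
          rw [hs_cons, hs_nil, add_zero, zero_add] at this
          exact this
        · rw [add_comm (σ d)]; exact eq_neg_of_add_eq_zero_left h2
      · rw [← List.cons_append, wd_append, wd_single]
    · rintro ⟨s, hs0, s1, d, ⟨⟨hd, hds⟩, -, hda⟩, u, ⟨u', ⟨P, hP, rfl, h3, h4⟩, b, ⟨hb, hbs⟩, rfl⟩,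
        rfl⟩
      have hcl : CL C (b :: (P ++ [d])) :=
        cl_cons.2 ⟨hb, cl_append.2 ⟨hP, (CL.nil C).cons hd⟩⟩
      have hw : wd (b :: (P ++ [d])) = d ++ (wd P ++ b) := by
        rw [wd_cons, wd_append, wd_single, List.append_assoc]
      refine ⟨⟨b, P ++ [d], hcl, hw, by rw [hbs]; exact hs0, ?_, ?_⟩, ?_⟩
      · rw [hs_append, hs_cons, hs_nil, add_zero, hds, hbs, add_comm (hs σ P), h4]; simp
      · rw [nc_append, hs_cons, hs_nil, add_zero, zero_add, hds]
        refine ⟨⟨trivial, ?_⟩, h3⟩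
        rintro ⟨h5, h6⟩
        rw [hs_nil, zero_add, zero_add] at h6
        exact h5 h6
      · rw [← hw]
        have : olf C (wd (b :: (P ++ [d]))) = d := olf_wd (P := b :: P) hC hcl
        rw [this]; exact hda
  rw [e]
  exact SH.iUnion fun s => SH.iUnion_prop fun _ => SH.iUnion fun s1 =>
    ((hG.ms s1).inter (hf a)).cat ((path_sf hG s1 (-s)).cat (hG.ms s))

theorem ret_sf [Fact p.Prime] [Finite α] (hG : Gd p C σ) : SH 0 (Ret C σ) := by
  have : NeZero p := ⟨(Fact.out : p.Prime).ne_zero⟩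
  exact (ms_nwf hG hG.ms).sh

/-! ### flattening -/

/-- The factors over `C` of a list of words of `C*`, newest first. -/
noncomputable def fl (C : Set (List α)) : List (List α) → List (List α)
  | [] => []
  | y :: Y => fac C y ++ fl C Y

theorem fl_append (Y Z : List (List α)) : fl C (Y ++ Z) = fl C Y ++ fl C Z := by
  induction Y with
  | nil => rfl
  | cons y Y ih => rw [List.cons_append, fl, ih, fl, List.append_assoc]

theorem fl_cl (Y : List (List α)) : CL C (fl C Y) := by
  induction Y with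
  | nil => exact CL.nil C
  | cons y Y ih => exact cl_append.2 ⟨fac_cl C y, ih⟩

theorem wd_fl {Y : List (List α)} (hY : ∀ y ∈ Y, y ∈ kst C) : wd (fl C Y) = wd Y := by
  induction Y with
  | nil => rfl
  | cons y Y ih =>
    rw [fl, wd_append, ih (fun z hz => hY z (by simp [hz])), wd_fac (hY y (by simp)), wd_cons]

theorem kst_kst {w : List α} (hw : w ∈ kst (Ret C σ)) : w ∈ kst C := by
  obtain ⟨Y, hY, rfl⟩ := mem_kst_iff.1 hw
  exact mem_kst_iff.2 ⟨fl C Y, fl_cl Y, wd_fl fun y hy => ret_kst (hY y hy)⟩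

theorem hs_fl (hC : PCd C) {Y : List (List α)} (hY : CL (Ret C σ) Y) : hs σ (fl C Y) = 0 := by
  induction Y with
  | nil => rfl
  | cons y Y ih =>
    obtain ⟨b, P, -, -, h0, -, h1, h2, h3⟩ := ret_fac hC (cl_cons.1 hY).1
    rw [fl, hs_append, ih (cl_cons.1 hY).2, h0, hs_cons, add_zero, add_comm]
    exact h2

theorem fl_head (hC : PCd C) {Y : List (List α)} (hY : CL (Ret C σ) Y) (hne : Y ≠ []) :
    ∃ b P, fl C Y = b :: P ∧ σ b ≠ 0 := by
  cases Y with
  | nil => exact absurd rfl hne
  | cons y Y =>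
    obtain ⟨b, P, -, -, h0, -, h1, h2, h3⟩ := ret_fac hC (cl_cons.1 hY).1
    exact ⟨b, P ++ fl C Y, by rw [fl, h0]; rfl, h1⟩

/-- A path from `0` to `0` with nonzero last label is a product of return words. -/
theorem kst_ret (hC : PCd C) : ∀ (n : ℕ) (b : List α) (P : List (List α)), P.length ≤ n →
    CL C (b :: P) → σ b ≠ 0 → hs σ P + σ b = 0 → wd (b :: P) ∈ kst (Ret C σ) := by
  intro n
  induction n with
  | zero =>
    intro b P hn _ h1 h2
    have : P = [] := List.length_eq_zero_iff.1 (by omega)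
    exact absurd this (ret_two h1 h2)
  | succ n ih =>
    intro b P hn h h1 h2
    by_cases h3 : nc σ 0 P
    · exact kst_of_mem ⟨b, P, h, rfl, h1, h2, h3⟩
    · have h4 : ∀ P : List (List α), ¬ nc σ 0 P → ∃ Q b' P', P = Q ++ b' :: P' ∧ σ b' ≠ 0 ∧
          hs σ P' + σ b' = 0 := by
        intro P
        induction P with
        | nil => intro h; exact absurd trivial h
        | cons c P ihP =>
          intro h5
          by_cases h6 : nc σ 0 P
          · have h7 : σ c ≠ 0 ∧ 0 + hs σ P + σ c = 0 := by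
              by_contra h7
              exact h5 ⟨h6, h7⟩
            exact ⟨[], c, P, rfl, h7.1, by simpa using h7.2⟩
          · obtain ⟨Q, b', P', e, h8, h9⟩ := ihP h6
            exact ⟨c :: Q, b', P', by rw [e]; rfl, h8, h9⟩
      obtain ⟨Q, b', P', e, h5, h6⟩ := h4 P h3
      subst e
      rw [List.length_append, List.length_cons] at hn
      rw [cl_cons, cl_append] at h
      have r1 := ih b' P' (by omega) h.2.2 h5 h6
      have r2 := ih b Q (by omega) (cl_cons.2 ⟨h.1, h.2.1⟩) h1 (by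
        rw [hs_append, hs_cons, add_comm (σ b') (hs σ P'), h6, add_zero] at h2
        exact h2)
      rw [← List.cons_append, wd_append]
      exact kst_append r1 r2

/-- Structure of minimal powers in `Ret*`. -/
theorem ret_min [hp : Fact p.Prime] (hG : Gd p C σ) {v : List α} {j : ℕ} {Y : List (List α)}
    (hj : 2 ≤ j) (hY : CL (Ret C σ) Y) (hw : wd Y = pw v j)
    (hmin : ∀ i, 1 ≤ i → i < j → pw v i ∉ kst (Ret C σ)) :
    ∃ X, CL C X ∧ hs σ X ≠ 0 ∧ fl C Y = rep p X := by
  have hC := hG.toPCd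
  have hmem : pw v j ∈ kst (Ret C σ) := mem_kst_iff.2 ⟨Y, hY, hw⟩
  obtain ⟨j0, k, X, hj0, hk, hjk, hX, hXw, hmin0, hrep⟩ :=
    exists_min hC (v := v) (n := j) (by omega) (kst_kst hmem)
  have hfl : fl C Y = rep k X := by
    apply wd_inj hC (fl_cl Y) (cl_rep hX k)
    rw [wd_fl fun y hy => ret_kst (hY y hy), hw, hrep]
  have hv : v ≠ [] := by
    rintro rfl
    exact hmin 1 le_rfl (by omega) (by rw [pw_one]; exact kst_nil _)
  have hYne : Y ≠ [] := by
    rintro rfl
    obtain ⟨j', rfl⟩ : ∃ j', j = j' + 1 := ⟨j - 1, by omega⟩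
    rw [wd_nil, pw_succ] at hw
    exact hv (List.append_eq_nil_iff.1 hw.symm).1
  obtain ⟨b, P, hbP, hb⟩ := fl_head hC hY hYne
  obtain ⟨k', rfl⟩ : ∃ k', k = k' + 1 := ⟨k - 1, by omega⟩
  have hXne : ∃ P', X = b :: P' := by
    cases X with
    | nil =>
      have : rep (k' + 1) ([] : List (List α)) = [] := by
        clear * -
        induction k' with
        | zero => rfl
        | succ k ih => rw [rep_succ, ih]; rfl
      rw [hfl, this] at hbP
      simp at hbP
    | cons c X =>
      rw [hfl, rep_succ, List.cons_append, List.cons.injEq] at hbP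
      exact ⟨X, by rw [hbP.1]⟩
  obtain ⟨P', rfl⟩ := hXne
  have hsum : (k' + 1) • hs σ (b :: P') = 0 := by
    rw [← hs_rep, ← hfl]; exact hs_fl hC hY
  by_cases hS : hs σ (b :: P') = 0
  · exfalso
    have hj1 : j0 = 1 := by
      by_contra hne
      exact hG.good v j0 _ (by omega) hX hXw hmin0 hS
    subst hj1
    apply hmin 1 le_rfl (by omega)
    rw [← hXw]
    rw [hs_cons, add_comm] at hS
    exact kst_ret hC _ b P' le_rfl hX hb hS
  · refine ⟨b :: P', hX, hS, ?_⟩
    have hk0 : ((k' + 1 : ℕ) : ZMod p) = 0 := by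
      rw [nsmul_eq_mul] at hsum
      rcases mul_eq_zero.1 hsum with h | h
      · exact h
      · exact absurd h hS
    have hpk : p ∣ k' + 1 := (ZMod.natCast_eq_zero_iff _ p).1 hk0
    have hle : p ≤ k' + 1 := Nat.le_of_dvd (by omega) hpk
    have hp1 : 1 ≤ p := hp.out.one_le
    have hin : pw v (j0 * p) ∈ kst (Ret C σ) := by
      have e : pw v (j0 * p) = wd (rep p (b :: P')) := by rw [wd_rep, hXw, pw_mul]
      obtain ⟨p', hp'⟩ : ∃ p', p = p' + 1 := ⟨p - 1, by omega⟩
      have h0 : hs σ (rep p (b :: P')) = 0 := by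
        rw [hs_rep, nsmul_eq_mul, ZMod.natCast_self, zero_mul]
      rw [e]
      have e2 : rep p (b :: P') = b :: (P' ++ rep p' (b :: P')) := by
        conv_lhs => rw [hp', rep_succ]
        rfl
      have hcl := cl_rep hX p
      rw [e2] at h0 hcl ⊢
      rw [hs_cons, add_comm] at h0
      exact kst_ret hC _ b _ le_rfl hcl hb h0
    have hge : j ≤ j0 * p := by
      by_contra hlt
      exact hmin (j0 * p) (Nat.mul_pos (by omega) (by omega)) (by omega) hin
    have : k' + 1 ≤ p := by
      rw [hjk] at hge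
      exact Nat.le_of_mul_le_mul_left hge (by omega)
    rw [hfl, show k' + 1 = p by omega]

/-! ### counting arrivals and departures -/

/-- Sum of `β` over the letters arriving at height `0` with nonzero label. -/
def arr {A : Type*} [AddCommMonoid A] (σ : List α → ZMod p) (β : List α → A) (a : ZMod p) :
    List (List α) → A
  | [] => 0
  | b :: P => (if σ b ≠ 0 ∧ a + hs σ P + σ b = 0 then β b else 0) + arr σ β a P

/-- Sum of `β` over the letters leaving height `0`. -/
def dep {A : Type*} [AddCommMonoid A] (σ : List α → ZMod p) (β : List α → A) (a : ZMod p) :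
    List (List α) → A
  | [] => 0
  | b :: P => (if a + hs σ P = 0 then β b else 0) + dep σ β a P

section Cnt

variable {A : Type*} [AddCommMonoid A] (β : List α → A)

theorem arr_append (a : ZMod p) (W V : List (List α)) :
    arr σ β a (W ++ V) = arr σ β (a + hs σ V) W + arr σ β a V := by
  induction W with
  | nil => simp [arr]
  | cons b W ih =>
    rw [List.cons_append, arr, ih, arr, hs_append]
    have e : a + (hs σ W + hs σ V) + σ b = a + hs σ V + hs σ W + σ b := by ring
    rw [e]
    exact (add_assoc _ _ _).symm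

theorem dep_append (a : ZMod p) (W V : List (List α)) :
    dep σ β a (W ++ V) = dep σ β (a + hs σ V) W + dep σ β a V := by
  induction W with
  | nil => simp [dep]
  | cons b W ih =>
    rw [List.cons_append, dep, ih, dep, hs_append]
    have e : a + (hs σ W + hs σ V) = a + hs σ V + hs σ W := by ring
    rw [e]
    exact (add_assoc _ _ _).symm

theorem arr_rep (a : ZMod p) (X : List (List α)) (k : ℕ) :
    arr σ β a (rep k X) = ∑ m ∈ Finset.range k, arr σ β (a + (m : ZMod p) * hs σ X) X := by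
  induction k with
  | zero => simp [arr]
  | succ k ih =>
    rw [rep_succ, arr_append, ih, Finset.sum_range_succ, hs_rep, nsmul_eq_mul, add_comm]

theorem dep_rep (a : ZMod p) (X : List (List α)) (k : ℕ) :
    dep σ β a (rep k X) = ∑ m ∈ Finset.range k, dep σ β (a + (m : ZMod p) * hs σ X) X := by
  induction k with
  | zero => simp [dep]
  | succ k ih =>
    rw [rep_succ, dep_append, ih, Finset.sum_range_succ, hs_rep, nsmul_eq_mul, add_comm]

theorem sum_one [hp : Fact p.Prime] {S : ZMod p} (hS : S ≠ 0) (c : ZMod p) (x : A) :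
    ∑ m ∈ Finset.range p, (if (m : ZMod p) * S + c = 0 then x else 0) = x := by
  have hlt : (-c / S).val < p := ZMod.val_lt _
  have e : ∀ m ∈ Finset.range p, (if (m : ZMod p) * S + c = 0 then x else 0) =
      if m = (-c / S).val then x else 0 := by
    intro m hm
    have hm' := Finset.mem_range.1 hm
    congr 1
    apply propext
    constructor
    · intro h
      have h1 : (m : ZMod p) = -c / S := by
        rw [eq_div_iff hS]; exact eq_neg_of_add_eq_zero_left h
      rw [← h1, ZMod.val_natCast_of_lt hm']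
    · intro h
      rw [h, ZMod.natCast_zmod_val, div_mul_cancel₀ _ hS, neg_add_cancel]
  rw [Finset.sum_congr rfl e, Finset.sum_ite_eq', if_pos (Finset.mem_range.2 hlt)]

theorem arr_all [hp : Fact p.Prime] {S : ZMod p} (hS : S ≠ 0) (a : ZMod p)
    (X : List (List α)) :
    ∑ m ∈ Finset.range p, arr σ β (a + (m : ZMod p) * S) X =
      hs (fun b => if σ b ≠ 0 then β b else 0) X := by
  induction X with
  | nil => simp [arr]
  | cons b X ih =>
    simp only [arr]
    rw [Finset.sum_add_distrib, ih, hs_cons]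
    congr 1
    by_cases h : σ b ≠ 0
    · rw [if_pos h]
      have e : ∀ m ∈ Finset.range p,
          (if σ b ≠ 0 ∧ a + (m : ZMod p) * S + hs σ X + σ b = 0 then β b else 0) =
          if (m : ZMod p) * S + (a + hs σ X + σ b) = 0 then β b else 0 := by
        intro m _
        have : a + (m : ZMod p) * S + hs σ X + σ b = (m : ZMod p) * S + (a + hs σ X + σ b) := by
          ring
        rw [this]
        simp [h]
      rw [Finset.sum_congr rfl e, sum_one hS]
    · rw [if_neg h]
      apply Finset.sum_eq_zero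
      intro m _
      rw [if_neg fun h' => h h'.1]

theorem dep_all [hp : Fact p.Prime] {S : ZMod p} (hS : S ≠ 0) (a : ZMod p)
    (X : List (List α)) :
    ∑ m ∈ Finset.range p, dep σ β (a + (m : ZMod p) * S) X = hs β X := by
  induction X with
  | nil => simp [dep]
  | cons b X ih =>
    simp only [dep]
    rw [Finset.sum_add_distrib, ih, hs_cons]
    congr 1
    have e : ∀ m ∈ Finset.range p,
        (if a + (m : ZMod p) * S + hs σ X = 0 then β b else 0) =
        if (m : ZMod p) * S + (a + hs σ X) = 0 then β b else 0 := by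
      intro m _
      have : a + (m : ZMod p) * S + hs σ X = (m : ZMod p) * S + (a + hs σ X) := by ring
      rw [this]
    rw [Finset.sum_congr rfl e, sum_one hS]

theorem arr_nc {a : ZMod p} {P : List (List α)} (h : nc σ a P) : arr σ β a P = 0 := by
  induction P with
  | nil => rfl
  | cons b P ih => rw [arr, if_neg h.2, ih h.1, add_zero]

theorem arr_fl (hC : PCd C) {Y : List (List α)} (hY : CL (Ret C σ) Y) :
    arr σ β 0 (fl C Y) = hs (fun w => β (nwf C w)) Y := by
  induction Y with
  | nil => rfl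
  | cons y Y ih =>
    obtain ⟨b, P, -, -, h0, h0', h1, h2, h3⟩ := ret_fac hC (cl_cons.1 hY).1
    rw [fl, arr_append, ih (cl_cons.1 hY).2, hs_fl hC (cl_cons.1 hY).2, h0, hs_cons, add_zero,
      arr, arr_nc β h3, add_zero, if_pos ⟨h1, by rw [zero_add]; exact h2⟩, h0']

theorem dep_zero {a : ZMod p} {P : List (List α)}
    (h : ∀ Q b R, P = Q ++ b :: R → a + hs σ R ≠ 0) : dep σ β a P = 0 := by
  induction P with
  | nil => rfl
  | cons b P ih =>
    rw [dep, if_neg (h [] b P rfl), zero_add]
    apply ih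
    intro Q c R e
    exact h (b :: Q) c R (by rw [e]; rfl)

theorem nc_ne {a : ZMod p} {P : List (List α)} (h : nc σ a P) (hnz : ∀ b ∈ P, σ b ≠ 0)
    {Q R : List (List α)} (e : P = Q ++ R) (hR : R ≠ []) : a + hs σ R ≠ 0 := by
  subst e
  obtain ⟨b, R, rfl⟩ := List.exists_cons_of_ne_nil hR
  rw [nc_append] at h
  intro h1
  apply h.1.2
  refine ⟨hnz b (by simp), ?_⟩
  rw [← h1, hs_cons]; ring

theorem dep_fl (hC : PCd C) (hnz : ∀ b ∈ C, σ b ≠ 0) {Y : List (List α)}
    (hY : CL (Ret C σ) Y) : dep σ β 0 (fl C Y) = hs (fun w => β (olf C w)) Y := by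
  induction Y with
  | nil => rfl
  | cons y Y ih =>
    obtain ⟨b, P, hcl, hwd, h0, h0', h1, h2, h3⟩ := ret_fac hC (cl_cons.1 hY).1
    rw [fl, dep_append, ih (cl_cons.1 hY).2, hs_fl hC (cl_cons.1 hY).2, h0, hs_cons, add_zero]
    congr 1
    rcases List.eq_nil_or_concat P with rfl | ⟨P, d, rfl⟩
    · exact absurd rfl (ret_two h1 h2)
    rw [List.concat_eq_append] at *
    have h5 : olf C y = d := by
      rw [← hwd]; exact olf_wd (P := b :: P) hC hcl
    have hd1 : dep σ β 0 [d] = β d := by simp [dep]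
    rw [h5, ← List.cons_append, dep_append, hd1, hs_cons, hs_nil, add_zero, dep_zero, zero_add]
    intro Q c R e
    rw [zero_add]
    have h7 : ∃ Q', P ++ [d] = Q' ++ (R ++ [d]) := by
      cases Q with
      | nil =>
        rw [List.nil_append, List.cons.injEq] at e
        exact ⟨[], by rw [e.2]; simp⟩
      | cons q Q =>
        rw [List.cons_append, List.cons.injEq] at e
        exact ⟨Q ++ [c], by rw [e.2]; simp⟩
    obtain ⟨Q', hQ'⟩ := h7
    have h6 := nc_ne (a := 0) h3 (fun x hx => hnz x (hcl x (by simp [hx]))) hQ' (by simp)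
    rw [hs_append, hs_cons, hs_nil, add_zero, zero_add, add_comm] at h6
    exact h6

end Cnt

/-- **The return code of a good walk with the label of the last factor is good.** -/
theorem ret_gd [hp : Fact p.Prime] [Finite α] (hG : Gd p C σ) :
    Gd p (Ret C σ) (fun w => σ (nwf C w)) where
  toPCd := ret_pcd hG.toPCd
  ms := ms_nwf hG hG.ms
  good := by
    intro v j Y hj hY hw hmin
    obtain ⟨X, hX, hS, hfl⟩ := ret_min hG hj hY hw hmin
    rw [← arr_fl σ hG.toPCd hY, hfl, arr_rep]
    rw [arr_all σ hS 0 X]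
    have e : (fun b => if σ b ≠ 0 then σ b else 0) = σ := by
      funext b
      by_cases h : σ b ≠ 0
      · rw [if_pos h]
      · rw [if_neg h]; push Not at h; exact h.symm
    rw [e]; exact hS

/-- Sums of functions of the newest factor over minimal powers, nonzero labels. -/
theorem null_diff [hp : Fact p.Prime] (hG : Gd p C σ) (hnz : ∀ b ∈ C, σ b ≠ 0)
    {A : Type*} [AddCommGroup A] (β : List α → A) {v : List α} {j : ℕ} {Y : List (List α)}
    (hj : 2 ≤ j) (hY : CL (Ret C σ) Y) (hw : wd Y = pw v j)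
    (hmin : ∀ i, 1 ≤ i → i < j → pw v i ∉ kst (Ret C σ)) :
    hs (fun w => β (nwf C w) - β (olf C w)) Y = 0 := by
  obtain ⟨X, hX, hS, hfl⟩ := ret_min hG hj hY hw hmin
  have h1 := arr_fl β hG.toPCd hY
  have h2 := dep_fl β hG.toPCd hnz hY
  rw [hfl, arr_rep, arr_all β hS 0 X] at h1
  rw [hfl, dep_rep, dep_all β hS 0 X] at h2
  have e : hs (fun b => if σ b ≠ 0 then β b else 0) X = hs β X := by
    unfold hs
    congr 1
    apply List.map_congr_left
    intro b hb
    rw [if_pos (hnz b (hX b hb))]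
  rw [e, h2] at h1
  have h3 : hs (fun w => β (nwf C w) - β (olf C w)) Y =
      hs (fun w => β (nwf C w)) Y - hs (fun w => β (olf C w)) Y := by
    clear * -
    induction Y with
    | nil => simp
    | cons y Y ih => rw [hs_cons, hs_cons, hs_cons, ih]; abel
  rw [h3, h1, sub_self]

/-- Perturbation by a null function of first and last letter. -/
theorem ret_gd_diff [hp : Fact p.Prime] [Finite α] (hG : Gd p C σ) (hnz : ∀ b ∈ C, σ b ≠ 0)
    {β : List α → ZMod p} (hβ : Ms C β) :
    Gd p (Ret C σ) (fun w => σ (nwf C w) + (β (nwf C w) - β (olf C w))) where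
  toPCd := ret_pcd hG.toPCd
  ms := by
    have : NeZero p := ⟨hp.out.ne_zero⟩
    exact (ms_nwf hG hG.ms).op2 ((ms_nwf hG hβ).op2 (ms_olf hG hβ) (fun x y => x - y))
      (fun x y => x + y)
  good := by
    intro v j Y hj hY hw hmin
    have h1 := (ret_gd hG).good v j Y hj hY hw hmin
    have h2 := null_diff hG hnz β hj hY hw hmin
    have h3 : hs (fun w => σ (nwf C w) + (β (nwf C w) - β (olf C w))) Y =
        hs (fun w => σ (nwf C w)) Y + hs (fun w => β (nwf C w) - β (olf C w)) Y := by
      clear * -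
      induction Y with
      | nil => simp
      | cons y Y ih => rw [hs_cons, hs_cons, hs_cons, ih]; abel
    rw [h3, h2, add_zero]
    exact h1

end Vale.Agent.P329.H294
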